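import Vale.Agent.P161.Conv

open Vale.Agent.P161

theorem Vale.Agent.Results.P161.Main.result (d : ℕ) (hd : 3 ≤ d) (β : ℝ) (hβ : 0 ≤ β) :
    IsFIID (ising d β) ↔ Real.tanh β ≤ ((d : ℝ) - 1) ^ (-(1 / 2) : ℝ) :=
  main d hd β hβ
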